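import Vale.Agent.P253H.Lift
import Vale.Agent.P253H.Fill
import Vale.Agent.P253.Red

/-! Lifts through an immersion that need not be injective. -/

namespace Vale.Agent.P253.K

open Complex Matrix Metric Set Filter Topology MeasureTheory
open scoped ContDiff ComplexConjugate ComplexOrder ENNReal Manifold

variable {n m N : ℕ} {X Y : Type} [TopologicalSpace X]

/-- The map `ψ` is a holomorphic lift of `Φ` through `h` on the open set `V ⊆ W`. -/
structure Lf (n : ℕ) [ChartedSpace (E n) X] (h : X → Y) (Φ : E m → Y) (W : Set (E m))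
    (ψ : E m → X) (V : Set (E m)) : Prop where
  hol : HolOn n ψ V
  sub : V ⊆ W
  eq : ∀ w ∈ V, h (ψ w) = Φ w

/-- The largest radius of a ball around `z` with a lift that takes the value `x` at `z`. -/
noncomputable def dl (n : ℕ) [ChartedSpace (E n) X] (h : X → Y) (Φ : E m → Y) (W : Set (E m))
    (x : X) (z : E m) : ℝ :=
  sSup {ρ | ∃ χ, Lf n h Φ W χ (ball z ρ) ∧ χ z = x}

/-- The lift `ψ` on `V` extends to a ball around `p`. -/
def Ex (n : ℕ) [ChartedSpace (E n) X] (h : X → Y) (Φ : E m → Y) (W : Set (E m))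
    (ψ : E m → X) (V : Set (E m)) (p : E m) : Prop :=
  ∃ r χ, Lf n h Φ W χ (ball p r) ∧ ∃ y ∈ ball p r ∩ V, χ y = ψ y

/-- Locally injective maps. -/
def LI (h : X → Y) : Prop := ∀ p, ∃ R : Y → X, ∀ᶠ x in 𝓝 p, R (h x) = x

/-- The metric on an open subset. -/
def resG {n : ℕ} (G : X → E n → M n) (O : TopologicalSpace.Opens X) (x : O) : E n → M n := G x.1

/-- The preimage of a chart domain. -/
def preO [TopologicalSpace Y] [ChartedSpace (E N) Y] {h : X → Y} (hc : Continuous h) (y : Y) :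
    TopologicalSpace.Opens X :=
  ⟨h ⁻¹' (chartAt (E N) y).source, (chartAt (E N) y).open_source.preimage hc⟩

/-- The standing hypotheses. -/
structure StdY (N : ℕ) [ChartedSpace (E n) X] [TopologicalSpace Y] [ChartedSpace (E N) Y]
    (G : X → E n → M n) (h : X → Y) : Prop where
  kae : MKaehler G
  nn : MNonneg G
  hol : MDifferentiable 𝓘(ℂ, E n) 𝓘(ℂ, E N) h
  imm : ∀ x, Function.Injective (mfderiv 𝓘(ℂ, E n) 𝓘(ℂ, E N) h x)

/-- A polydisc. -/
def PD (τ : ℝ) : Set (E 2) := {z | ‖z 0‖ < τ ∧ ‖z 1‖ < 1}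

theorem Lf.mono [ChartedSpace (E n) X] {h : X → Y} {Φ : E m → Y} {W V V' : Set (E m)}
    {ψ : E m → X} (H : Lf n h Φ W ψ V) (ho : IsOpen V') (hs : V' ⊆ V) : Lf n h Φ W ψ V' :=
  ⟨⟨ho, H.hol.hol.mono hs⟩, hs.trans H.sub, fun w hw => H.eq w (hs hw)⟩

end Vale.Agent.P253.K
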