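import Vale.Agent.P253K.F1

/-! T = {τ | 0 < τ ∧ τ ≤ 1 ∧ ∃ ψ, Lf .. ψ (PD τ) ∧ ψ 0 = φ 0} contains r (Lf.mono, PD r ⊆ hartogsFig r). With c = sSup T: glueF over T (PD a ∩ PD b = PD (min a b) is convex and contains 0, uniq), the union is PD c (exists_lt_of_lt_csSup), so c ∈ T; if c < 1 then hs gives a larger element of T. PD 1 = bidisc by rfl; agree gives the last claim. -/

namespace Vale.Agent.P253.K

open Complex Matrix Metric Set Filter Topology MeasureTheory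
open scoped ContDiff ComplexConjugate ComplexOrder ENNReal Manifold

variable {n m N : ℕ} {X Y : Type} [TopologicalSpace X] [ChartedSpace (E n) X]
  [IsManifold 𝓘(ℂ, E n) ω X] [T2Space X] {G : X → E n → M n} {h : X → Y} {Φ : E 2 → Y}
  {φ ψ : E 2 → X} {r τ : ℝ}

theorem JF3_zero (t0 : 0 < τ) : (0 : E 2) ∈ PD τ := by
  refine ⟨?_, ?_⟩
  · simpa using t0
  · simp

theorem finalF (hS : LI h) (r0 : 0 < r) (r1 : r < 1) (h1 : Lf n h Φ bidisc φ (hartogsFig r))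
    (hs : ∀ (τ : ℝ) (ψ : E 2 → X), 0 < τ → τ < 1 → Lf n h Φ bidisc ψ (PD τ) → ψ 0 = φ 0 →
      ∃ σ χ, τ < σ ∧ σ ≤ 1 ∧ Lf n h Φ bidisc χ (PD σ) ∧ χ 0 = φ 0) :
    ∃ ψ, Lf n h Φ bidisc ψ bidisc ∧ EqOn ψ φ (hartogsFig r) := by
  have : Nonempty X := ⟨φ 0⟩
  obtain ⟨T, hT⟩ : ∃ T : Set ℝ, ∀ t, t ∈ T ↔
      0 < t ∧ t ≤ 1 ∧ ∃ χ, Lf n h Φ bidisc χ (PD t) ∧ χ 0 = φ 0 :=
    ⟨{t | 0 < t ∧ t ≤ 1 ∧ ∃ χ, Lf n h Φ bidisc χ (PD t) ∧ χ 0 = φ 0}, fun _ => Iff.rfl⟩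
  have hr : r ∈ T := (hT r).2 ⟨r0, r1.le, φ, h1.mono (PD_oc r).1 fun z hz =>
    ⟨hz.1.trans r1, hz.2, Or.inl hz.1⟩, rfl⟩
  have hb : BddAbove T := ⟨1, fun t ht => ((hT t).1 ht).2.1⟩
  have c0 : 0 < sSup T := r0.trans_le (le_csSup hb hr)
  have c1 : sSup T ≤ 1 := csSup_le ⟨r, hr⟩ fun t ht => ((hT t).1 ht).2.1
  choose χ k1 k2 using fun t : T => ((hT t.1).1 t.2).2.2
  obtain ⟨ψ, p1, p2⟩ := glueF (V := fun t : T => PD t.1) k1 fun a b =>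
    uniq hS (k1 a) (k1 b) ((PD_oc a.1).2.inter (PD_oc b.1).2).isPreconnected inter_subset_left
      inter_subset_right ⟨JF3_zero ((hT a.1).1 a.2).1, JF3_zero ((hT b.1).1 b.2).1⟩
      ((k2 a).trans (k2 b).symm)
  have hU : ⋃ t : T, PD t.1 = PD (sSup T) := by
    ext z
    rw [mem_iUnion]
    refine ⟨fun ⟨t, ht⟩ => ⟨ht.1.trans_le (le_csSup hb t.2), ht.2⟩, fun hz => ?_⟩
    obtain ⟨t, ht, k⟩ := exists_lt_of_lt_csSup ⟨r, hr⟩ hz.1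
    exact ⟨⟨t, ht⟩, k, hz.2⟩
  rw [hU] at p1
  have p0 : ψ 0 = φ 0 := (p2 ⟨r, hr⟩ (JF3_zero r0)).trans (k2 _)
  have c2 : sSup T = 1 := by
    refine c1.eq_or_lt.resolve_right fun k => ?_
    obtain ⟨σ, χ', q1, q2, q3, q4⟩ := hs _ ψ c0 k p1 p0
    exact (le_csSup hb ((hT σ).2 ⟨c0.trans q1, q2, χ', q3, q4⟩)).not_gt q1
  rw [c2] at p1
  exact ⟨ψ, p1, fun z hz => agree hS r0 one_pos h1 p1 p0 ⟨⟨hz.1, hz.2.1⟩, hz⟩⟩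

end Vale.Agent.P253.K
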