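import Vale.Agent.P253K.D

/-! Charts of O are chartAt x.1 restricted (TopologicalSpace.Opens.chartAt_eq, subtypeRestr: same function on points of O, target inside the old target: subtypeRestr_target_subset or map_subtype_source). IsKaehler and NonnegBisec (P253/Stmt.lean) are monotone in the set. compat: near the point the transition map of O equals the one of X (subtypeRestr_symm_eqOn, open target), EventuallyEq.fderiv_eq; cder is fderiv. -/

namespace Vale.Agent.P253.K

open Complex Matrix Metric Set Filter Topology MeasureTheory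
open scoped ContDiff ComplexConjugate ComplexOrder ENNReal Manifold

variable {n m N : ℕ} {X Y : Type} [TopologicalSpace X] [ChartedSpace (E n) X]
  [IsManifold 𝓘(ℂ, E n) ω X] [TopologicalSpace Y] [ChartedSpace (E N) Y]
  [IsManifold 𝓘(ℂ, E N) ω Y] {G : X → E n → M n} {h : X → Y} {Ω : Set (E m)}

omit [IsManifold 𝓘(ℂ, E n) ω X] in
theorem KO1sub (O : TopologicalSpace.Opens X) (x : O) :
    (chartAt (E n) x).target ⊆ (chartAt (E n) x.1).target :=
  (chartAt (E n) x.1).subtypeRestr_target_subset ⟨x⟩

theorem res_kae (hG : MKaehler G) (O : TopologicalSpace.Opens X) : MKaehler (resG G O) := by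
  refine ⟨fun x => ?_, fun x y p hx hy v => ?_⟩
  · have hs := KO1sub (n := n) O x
    exact ⟨fun i j => ((hG.loc x.1).smooth i j).mono hs, fun z hz => (hG.loc x.1).pos z (hs hz),
      fun z hz => (hG.loc x.1).closed z (hs hz)⟩
  · have hx' : p.1 ∈ (chartAt (E n) x.1).source := by
      rw [TopologicalSpace.Opens.chartAt_eq, OpenPartialHomeomorph.subtypeRestr_source] at hx
      exact hx
    have hy' : p.1 ∈ (chartAt (E n) y.1).source := by
      rw [TopologicalSpace.Opens.chartAt_eq, OpenPartialHomeomorph.subtypeRestr_source] at hy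
      exact hy
    have hc := hG.compat x.1 y.1 p.1 hx' hy' v
    have he : (chartAt (E n) x ∘ (chartAt (E n) y).symm) =ᶠ[𝓝 (chartAt (E n) y.1 p.1)]
        (chartAt (E n) x.1 ∘ (chartAt (E n) y.1).symm) := by
      have ht : (chartAt (E n) y).target ∈ 𝓝 (chartAt (E n) y.1 p.1) :=
        (chartAt (E n) y).open_target.mem_nhds ((chartAt (E n) y).map_source hy)
      filter_upwards [ht] with w hw
      have h1 := (chartAt (E n) y.1).subtypeRestr_symm_eqOn (U := O) ⟨y⟩ hw
      show chartAt (E n) x.1 ((chartAt (E n) y).symm w).1 =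
        chartAt (E n) x.1 ((chartAt (E n) y.1).symm w)
      rw [h1]
      rfl
    have hd : cder (E n) (E n) (chartAt (E n) x ∘ (chartAt (E n) y).symm)
        (chartAt (E n) y.1 p.1) v = cder (E n) (E n)
        (chartAt (E n) x.1 ∘ (chartAt (E n) y.1).symm) (chartAt (E n) y.1 p.1) v := by
      unfold cder
      rw [he.fderiv_eq]
    rw [← hd] at hc
    exact hc

theorem res_nn (hG : MNonneg G) (O : TopologicalSpace.Opens X) : MNonneg (resG G O) :=
  fun x z hz => hG x.1 z (KO1sub (n := n) O x hz)

end Vale.Agent.P253.K
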