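import Vale.Agent.P253K.D

/-! The map is chart ∘ h ∘ Subtype.val. val is smooth (contMDiff_subtype_val) and the chart is differentiable on its source (mdifferentiableAt_atlas). mfderiv_comp; the mfderiv of the chart is injective (OpenPartialHomeomorph.MDifferentiable.mfderiv_injective, mdifferentiable_chart); the mfderiv of val is injective (it is the identity: writtenInExtChartAt is eventually id; search mfderiv subtype / Opens in Mathlib, or use that chartAt x.1 ∘ val = chartAt x on O has injective mfderiv and mfderiv_comp, Function.Injective.of_comp). -/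

namespace Vale.Agent.P253.K

open Complex Matrix Metric Set Filter Topology MeasureTheory
open scoped ContDiff ComplexConjugate ComplexOrder ENNReal Manifold

variable {n m N : ℕ} {X Y : Type} [TopologicalSpace X] [ChartedSpace (E n) X]
  [IsManifold 𝓘(ℂ, E n) ω X] [TopologicalSpace Y] [ChartedSpace (E N) Y]
  [IsManifold 𝓘(ℂ, E N) ω Y] {G : X → E n → M n} {h : X → Y} {Ω : Set (E m)}

theorem res_hol (hh : MDifferentiable 𝓘(ℂ, E n) 𝓘(ℂ, E N) h) (y : Y) :
    MDifferentiable 𝓘(ℂ, E n) 𝓘(ℂ, E N)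
      fun x : preO (N := N) hh.continuous y => chartAt (E N) y (h x.1) := by
  intro x
  have h1 : MDifferentiableAt 𝓘(ℂ, E n) 𝓘(ℂ, E n)
      (Subtype.val : preO (N := N) hh.continuous y → X) x :=
    (contMDiff_subtype_val (n := 1)).mdifferentiableAt one_ne_zero
  exact (mdifferentiableAt_atlas (chart_mem_atlas (E N) y) x.2).comp x ((hh x.1).comp x h1)

theorem res_imm (hh : MDifferentiable 𝓘(ℂ, E n) 𝓘(ℂ, E N) h)
    (hi : ∀ x, Function.Injective (mfderiv 𝓘(ℂ, E n) 𝓘(ℂ, E N) h x)) (y : Y)
    (x : preO (N := N) hh.continuous y) : Function.Injective (mfderiv 𝓘(ℂ, E n) 𝓘(ℂ, E N)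
      (fun x : preO (N := N) hh.continuous y => chartAt (E N) y (h x.1)) x) := by
  have h1 : HasMFDerivAt 𝓘(ℂ, E n) 𝓘(ℂ, E n)
      (Subtype.val : preO (N := N) hh.continuous y → X) x
      (ContinuousLinearMap.id ℂ (E n)) := by
    refine ⟨continuous_subtype_val.continuousAt, ?_⟩
    refine (hasFDerivWithinAt_id _ _).congr_of_eventuallyEq ?_ ?_
    · filter_upwards [extChartAt_target_mem_nhdsWithin (I := 𝓘(ℂ, E n)) x] with z hz
      exact (extChartAt 𝓘(ℂ, E n) x).right_inv hz
    · exact (extChartAt 𝓘(ℂ, E n) x).right_inv (mem_extChartAt_target x)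
  have h2 := (mdifferentiableAt_atlas (I := 𝓘(ℂ, E N)) (chart_mem_atlas (E N) y) x.2).hasMFDerivAt
  have h3 := (h2.comp x ((hh x.1).hasMFDerivAt.comp x h1)).mfderiv
  have h4 := (mdifferentiable_chart (I := 𝓘(ℂ, E N)) y).mfderiv_injective x.2
  refine h3 ▸ ?_
  exact h4.comp (hi x.1)

end Vale.Agent.P253.K
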