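import Vale.Agent.P253K.D

/-! Maps into an open subset. The chart of O at x is chartAt x.1 restricted, so chartAt x ∘ θ = chartAt x.1 ∘ val ∘ θ as functions (rfl or simp); unfold MDifferentiableAt (mdifferentiableAt_iff, writtenInExtChartAt), continuity by the inducing val. GG only depends on the germ of the map (JM is an fderiv). -/

namespace Vale.Agent.P253.K

open Complex Matrix Metric Set Filter Topology MeasureTheory
open scoped ContDiff ComplexConjugate ComplexOrder ENNReal Manifold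

variable {n m N : ℕ} {X Y : Type} [TopologicalSpace X] [ChartedSpace (E n) X]
  [IsManifold 𝓘(ℂ, E n) ω X] [TopologicalSpace Y] [ChartedSpace (E N) Y]
  [IsManifold 𝓘(ℂ, E N) ω Y] {G : X → E n → M n} {h : X → Y} {Ω : Set (E m)}

theorem hol_val {O : TopologicalSpace.Opens X} {θ : E m → O} :
    HolOn n θ Ω ↔ HolOn n (fun z => (θ z).1) Ω := by
  have k : ∀ z, MDifferentiableWithinAt 𝓘(ℂ, E m) 𝓘(ℂ, E n) θ Ω z ↔
      MDifferentiableWithinAt 𝓘(ℂ, E m) 𝓘(ℂ, E n) (fun z => (θ z).1) Ω z := fun z => by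
    rw [mdifferentiableWithinAt_iff', mdifferentiableWithinAt_iff']
    exact and_congr (Topology.IsInducing.subtypeVal.continuousWithinAt_iff) Iff.rfl
  exact ⟨fun H => ⟨H.op, fun z hz => (k z).1 (H.hol z hz)⟩,
    fun H => ⟨H.op, fun z hz => (k z).2 (H.hol z hz)⟩⟩

theorem GG_val {O : TopologicalSpace.Opens X} (θ : E m → O) {ψ : E m → X} {z : E m}
    (he : (fun w => (θ w).1) =ᶠ[𝓝 z] ψ) : GG (resG G O) θ z = GG G ψ z := by
  have h0 : (θ z).1 = ψ z := he.eq_of_nhds
  have h1 : JM (chartAt (E n) (θ z) ∘ θ) z = JM (chartAt (E n) (ψ z) ∘ ψ) z := by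
    have h2 : (chartAt (E n) (θ z) ∘ θ) =ᶠ[𝓝 z] (chartAt (E n) (ψ z) ∘ ψ) :=
      he.mono fun w hw => by
        change chartAt (E n) (θ z).1 (θ w).1 = chartAt (E n) (ψ z) (ψ w)
        rw [h0, show (θ w).1 = ψ w from hw]
    simp only [JM, h2.fderiv_eq]
  have h3 : chartAt (E n) (θ z) (θ z) = chartAt (E n) (ψ z) (ψ z) := by
    change chartAt (E n) (θ z).1 (θ z).1 = _
    rw [h0]
  simp only [GG, resG, h1, h3, h0]

end Vale.Agent.P253.K
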