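import Vale.Agent.P253K.O1
import Vale.Agent.P253K.O2

/-! res_std collects O1 and O2. li: at p take y = h p, O = preO, R from retr (res_std hS y) at ⟨p, mem_chart_source⟩ (P253H/Ret.lean), and R1 w = (R (chartAt y w)).1; move the eventually statement from O to X (nhds_subtype, or IsOpen.nhds of the open embedding val: map_nhds_eq). -/

namespace Vale.Agent.P253.K

open Complex Matrix Metric Set Filter Topology MeasureTheory
open scoped ContDiff ComplexConjugate ComplexOrder ENNReal Manifold

variable {n m N : ℕ} {X Y : Type} [TopologicalSpace X] [ChartedSpace (E n) X]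
  [IsManifold 𝓘(ℂ, E n) ω X] [TopologicalSpace Y] [ChartedSpace (E N) Y]
  [IsManifold 𝓘(ℂ, E N) ω Y] {G : X → E n → M n} {h : X → Y} {Ω : Set (E m)}

theorem res_std (hS : StdY N G h) (y : Y) : Std (resG G (preO (N := N) hS.hol.continuous y))
    fun x : preO (N := N) hS.hol.continuous y => chartAt (E N) y (h x.1) :=
  ⟨res_kae hS.kae _, res_nn hS.nn _, res_hol hS.hol y, res_imm hS.hol hS.imm y⟩

theorem li (hS : StdY N G h) : LI h := by
  intro p
  obtain ⟨R, -, -, -, hR⟩ := retr (res_std hS (h p)) ⟨p, mem_chart_source (E N) (h p)⟩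
  refine ⟨fun w => (R (chartAt (E N) (h p) w)).1, ?_⟩
  rw [← (preO (N := N) hS.hol.continuous (h p)).isOpen.isOpenEmbedding_subtypeVal.map_nhds_eq
    ⟨p, mem_chart_source (E N) (h p)⟩, eventually_map]
  exact hR.mono fun x hx => congrArg Subtype.val hx

end Vale.Agent.P253.K
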