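import Vale.Agent.P253K.D

/-! Localization. The map (ζ, t) to f ζ + t • b ζ is continuous at (0, 1): take e in (0, 1) with ‖ζ‖ ≤ 2 e, 1 - e ≤ t ≤ 1 mapped into the ball. For s in [0, 1] the new family at (ζ, s) is the old one at (e ζ, 1 - e + s e). -/

namespace Vale.Agent.P253.K

open Complex Matrix Metric Set Filter Topology MeasureTheory
open scoped ContDiff ComplexConjugate ComplexOrder ENNReal Manifold

variable {n m N : ℕ} {X Y : Type} [TopologicalSpace X] [ChartedSpace (E n) X]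
  [IsManifold 𝓘(ℂ, E n) ω X] [TopologicalSpace Y] [ChartedSpace (E N) Y]
  [IsManifold 𝓘(ℂ, E N) ω Y] {G : X → E n → M n} {h : X → Y} {Ω : Set (E m)}

theorem touch_loc {f b : ℂ → E m} (hT : Touch Ω f b) {ρ : ℝ} (hρ : 0 < ρ) :
    ∃ e : ℝ, 0 < e ∧ Touch (Ω ∩ ball (f 0 + b 0) ρ)
      (fun ζ => f (e * ζ) + ((1 - e : ℝ) : ℂ) • b (e * ζ)) fun ζ => (e : ℂ) • b (e * ζ) := by
  have hc : Continuous fun p : ℂ × ℝ => f p.1 + (p.2 : ℂ) • b p.1 :=
    (hT.df.continuous.comp continuous_fst).add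
      ((Complex.continuous_ofReal.comp continuous_snd).smul (hT.db.continuous.comp continuous_fst))
  obtain ⟨δ, hδ, h⟩ := Metric.continuousAt_iff.1 (hc.continuousAt (x := (0, 1))) ρ hρ
  obtain ⟨e, he, he1, he2⟩ : ∃ e : ℝ, 0 < e ∧ e ≤ δ / 3 ∧ e ≤ 1 / 2 :=
    ⟨min (δ / 3) (1 / 2), lt_min (by linarith) (by norm_num), min_le_left _ _, min_le_right _ _⟩
  have hd : Differentiable ℂ fun ζ : ℂ => (e : ℂ) * ζ := differentiable_id.const_mul _
  refine ⟨e, he, (hT.df.comp hd).add ((hT.db.comp hd).const_smul ((1 - e : ℝ) : ℂ)),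
    (hT.db.comp hd).const_smul (e : ℂ), fun s hs ζ hζ hor => ?_, fun hm => hT.out ?_⟩
  · have e1 : f (e * ζ) + ((1 - e : ℝ) : ℂ) • b (e * ζ) + (s : ℂ) • (e : ℂ) • b (e * ζ) =
        f (e * ζ) + ((1 - e + s * e : ℝ) : ℂ) • b (e * ζ) := by
      rw [smul_smul, add_assoc, ← add_smul]
      push_cast
      rfl
    have hn : ‖(e : ℂ) * ζ‖ ≤ 2 * e := by
      rw [norm_mul, Complex.norm_real, Real.norm_of_nonneg he.le]
      nlinarith
    have h0 : 0 ≤ s * e := mul_nonneg hs.1 he.le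
    have h1 : s * e ≤ e := by nlinarith [hs.2]
    rw [e1]
    refine ⟨hT.ins _ ⟨by linarith, by linarith⟩ _ (by linarith) ?_, ?_⟩
    · rcases hor with hl | hz
      · exact Or.inl (by nlinarith)
      · exact Or.inr (mul_ne_zero (Complex.ofReal_ne_zero.2 he.ne') hz)
    · have h2 := @h ((e : ℂ) * ζ, 1 - e + s * e) (by
        rw [Prod.dist_eq, max_lt_iff, dist_zero_right, Real.dist_eq, abs_lt]
        refine ⟨by linarith, ?_, ?_⟩ <;> dsimp only <;> linarith)
      simpa only [mem_ball, Complex.ofReal_one, one_smul] using h2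
  · have h1 := hm.1
    simp only [mul_zero] at h1
    rw [add_assoc, ← add_smul] at h1
    simpa using h1

end Vale.Agent.P253.K
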