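import Vale.Agent.P253K.D

/-! Copy of red in P253/Red.lean with δ in place of infDist: q, ζ₀, ε from red1 for u ζ = -log (δ (z + ζ • a)); x = z + ζ₀ • a; given p and e take ρ > 0 with ‖ζ₀‖ + 2 ρ ≤ 1 and 2 ρ ‖a‖ < e; f ζ = z + (ζ₀ + ρ ζ) • a, b ζ = exp (q ζ₀ - q (ζ₀ + ρ ζ)) • (p - x). -/

namespace Vale.Agent.P253.K

open Complex Matrix Metric Set Filter Topology MeasureTheory
open scoped ContDiff ComplexConjugate ComplexOrder ENNReal Manifold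

variable {n m N : ℕ} {X Y : Type} [TopologicalSpace X] [ChartedSpace (E n) X]
  [IsManifold 𝓘(ℂ, E n) ω X] [T2Space X] {G : X → E n → M n} {h : X → Y} {Φ : E m → Y}
  {W Ω : Set (E m)} {ψ : E m → X}

theorem redD {δ : E m → ℝ} (hc : ContinuousOn δ Ω) (hp : ∀ z ∈ Ω, 0 < δ z) {z a : E m}
    (hin : ∀ ζ : ℂ, ‖ζ‖ ≤ 1 → z + ζ • a ∈ Ω)
    (hlt : Real.circleAverage (fun ζ => -Real.log (δ (z + ζ • a))) 0 1 < -Real.log (δ z)) :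
    ∃ x ∈ Ω, ∀ p, dist p x = δ x → ∀ e > 0, ∃ f b : ℂ → E m, Differentiable ℂ f ∧
      Differentiable ℂ b ∧ f 0 = x ∧ f 0 + b 0 = p ∧ (∀ ζ : ℂ, ‖ζ‖ ≤ 2 → f ζ ∈ Ω ∧ dist (f ζ) x < e) ∧
      ∀ t ∈ Icc (0 : ℝ) 1, ∀ ζ : ℂ, ‖ζ‖ ≤ 2 → (t < 1 ∨ ζ ≠ 0) → t * ‖b ζ‖ < δ (f ζ) := by
  have pos : ∀ ζ : ℂ, ‖ζ‖ ≤ 1 → 0 < δ (z + ζ • a) := fun ζ hζ => hp _ (hin ζ hζ)
  obtain ⟨q, ζ₀, ε, hq, h0, hε, h1, h2⟩ := red1 (u := fun ζ => -Real.log (δ (z + ζ • a)))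
    ((hc.comp (by fun_prop) fun ζ hζ => hin ζ (mem_closedBall_zero_iff.1 hζ)).log
      fun ζ hζ => (pos ζ (mem_closedBall_zero_iff.1 hζ)).ne').neg (by simpa using hlt)
  refine ⟨z + ζ₀ • a, hin _ h0.le, fun p h3 e he => ?_⟩
  obtain ⟨ρ, ρ0, hρ, hρ'⟩ : ∃ ρ : ℝ, 0 < ρ ∧ ‖ζ₀‖ + ρ * 2 ≤ 1 ∧ ρ * (2 * ‖a‖ + 1) ≤ e :=
    ⟨min ((1 - ‖ζ₀‖) / 2) (e / (2 * ‖a‖ + 1)), lt_min (by linarith) (by positivity),
      by linarith [min_le_left ((1 - ‖ζ₀‖) / 2) (e / (2 * ‖a‖ + 1))],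
      (le_div_iff₀ (by positivity)).1 (min_le_right _ _)⟩
  have h4 : ‖p - (z + ζ₀ • a)‖ = Real.exp (-(q ζ₀).re) := by
    rw [← h1, neg_neg, Real.exp_log (pos ζ₀ h0.le), ← h3, dist_eq_norm]
  have n1 : ∀ ζ : ℂ, ‖(ρ : ℂ) * ζ‖ = ρ * ‖ζ‖ := fun ζ => by
    rw [norm_mul, norm_real, Real.norm_of_nonneg ρ0.le]
  have h6 : ∀ ζ : ℂ, ‖ζ‖ ≤ 2 → ‖ζ₀ + ρ * ζ‖ ≤ 1 := fun ζ hζ =>
    (norm_add_le _ _).trans (by rw [n1]; nlinarith)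
  refine ⟨fun ζ => z + (ζ₀ + ρ * ζ) • a, fun ζ => cexp (q ζ₀ - q (ζ₀ + ρ * ζ)) • (p - (z + ζ₀ • a)),
    by fun_prop, by fun_prop, by simp, by simp, fun ζ hζ => ⟨hin _ (h6 ζ hζ), ?_⟩,
    fun t ht ζ hζ h5 => ?_⟩
  · rw [dist_add_left, dist_eq_norm, ← sub_smul, add_sub_cancel_left, norm_smul, n1]
    nlinarith [mul_le_mul_of_nonneg_right hζ (mul_nonneg ρ0.le (norm_nonneg a))]
  by_contra! h7
  rw [norm_smul, h4, norm_exp, ← Real.exp_add, sub_re, ← sub_eq_add_neg, sub_sub_cancel_left] at h7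
  have h8 := h2 _ (h6 ζ hζ)
  rw [add_sub_cancel_left, n1, neg_le, Real.le_log_iff_exp_le (pos _ (h6 ζ hζ)), neg_sub,
    sub_eq_add_neg, Real.exp_add] at h8
  have h9 := (Real.add_one_le_exp _).trans (le_of_mul_le_mul_right (h8.trans h7) (Real.exp_pos _))
  rcases h5 with h5 | h5
  · have : 0 ≤ ε * (ρ * ‖ζ‖) ^ 2 := by positivity
    linarith
  · have : 0 < ε * (ρ * ‖ζ‖) ^ 2 := by positivity
    linarith [ht.2]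

end Vale.Agent.P253.K
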