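import Vale.Agent.P253K.A
import Vale.Agent.P253K.B
import Vale.Agent.P253K.T2
import Vale.Agent.P253K.R

/-! Plurisubharmonicity of minus log dl. -/

namespace Vale.Agent.P253.K

open Complex Matrix Metric Set Filter Topology MeasureTheory
open scoped ContDiff ComplexConjugate ComplexOrder ENNReal Manifold

variable {n m N : ℕ} {X Y : Type} [TopologicalSpace X] [ChartedSpace (E n) X]
  [IsManifold 𝓘(ℂ, E n) ω X] [T2Space X] {G : X → E n → M n} {h : X → Y} {Φ : E m → Y}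
  {W Ω : Set (E m)} {ψ : E m → X}

theorem dl_psh (hS : LI h) (hm : 0 < m) (hb : Bornology.IsBounded W)
    (hR : ∀ (θ : E m → X) (U : Set (E m)) (f b : ℂ → E m), Lf n h Φ W θ U → Touch U f b →
      ∃ r χ, 0 < r ∧ Lf n h Φ W χ (ball (f 0 + b 0) r) ∧
        ∃ᶠ ζ in 𝓝[≠] (0 : ℂ), χ (f ζ + b ζ) = θ (f ζ + b ζ)) (h1 : Lf n h Φ W ψ Ω)
    (cΩ : Convex ℝ Ω) {z a : E m} (hin : ∀ ζ : ℂ, ‖ζ‖ ≤ 1 → z + ζ • a ∈ Ω) :
    -Real.log (dl n h Φ W (ψ z) z) ≤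
      Real.circleAverage (fun ζ => -Real.log (dl n h Φ W (ψ (z + ζ • a)) (z + ζ • a))) 0 1 := by
  by_contra hn
  have : Nonempty X := ⟨ψ z⟩
  obtain ⟨δ, hδ⟩ : ∃ δ : E m → ℝ, δ = fun y => dl n h Φ W (ψ y) y := ⟨_, rfl⟩
  have dc : ContinuousOn δ Ω := hδ ▸ dl_cont hS hm hb h1 cΩ
  have hb1 : ∀ y ∈ Ω, 0 < δ y ∧ ∃ χ, Lf n h Φ W χ (ball y (δ y)) ∧ χ y = ψ y := fun y hy => by
    simpa only [hδ] using dl_ball hS hm hb h1 hy
  obtain ⟨x, hx, H⟩ := redD dc (fun y hy => (hb1 y hy).1) hin (by simpa only [hδ] using not_le.1 hn)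
  have d0 := fun y hy => (hb1 y hy).1
  choose! χ k1 k2 using fun y hy => (hb1 y hy).2
  obtain ⟨p, hp, hE⟩ : ∃ p, dist p x = δ x ∧ ¬Ex n h Φ W (χ x) (ball x (δ x)) p := by
    by_contra h2
    obtain ⟨d, χ', a1, a2, a3⟩ := ex_big hS (d0 x hx) (k1 x hx) fun p hp =>
      by_contra fun k => h2 ⟨p, hp, k⟩
    have a4 := le_dl hm hb a2
    rw [a3, k2 x hx] at a4
    exact absurd (by simpa only [hδ] using a1) (not_lt.2 a4)
  obtain ⟨e, e0, he⟩ : ∃ e > 0, ∀ y ∈ Ω, dist y x < e → 2 * e < δ y := by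
    obtain ⟨e, e0, he⟩ := Metric.continuousWithinAt_iff.1 (dc x hx) _ (half_pos (d0 x hx))
    refine ⟨min e (δ x / 4), lt_min e0 (by linarith [d0 x hx]), fun y hy k => ?_⟩
    have a1 := (abs_lt.1 (Real.dist_eq _ _ ▸ he hy (k.trans_le (min_le_left _ _)))).1
    linarith [min_le_right e (δ x / 4)]
  obtain ⟨f, b, df, db, f0, fb, hf, hi⟩ := H p hp e e0
  obtain ⟨θ, u1, u2⟩ := glueF (ι := {ζ : ℂ // ‖ζ‖ ≤ 2}) (V := fun i => ball (f i) (δ (f i)))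
    (χ := fun i => χ (f i)) (fun i => k1 _ (hf i i.2).1) fun i j => by
      have a1 : f j ∈ ball (f i) (δ (f i)) := by
        refine lt_trans ?_ (he _ (hf i i.2).1 (hf i i.2).2)
        linarith [dist_triangle_right (f j) (f i) x, (hf i i.2).2, (hf j j.2).2]
      refine uniq hS (k1 _ (hf i i.2).1) (k1 _ (hf j j.2).1)
        ((convex_ball _ _).inter (convex_ball _ _)).isPreconnected inter_subset_left
        inter_subset_right ⟨a1, mem_ball_self (d0 _ (hf j j.2).1)⟩ ?_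
      rw [k2 _ (hf j j.2).1]
      exact uniq hS (k1 _ (hf i i.2).1) h1 ((convex_ball _ _).inter cΩ).isPreconnected
        inter_subset_left inter_subset_right ⟨mem_ball_self (d0 _ (hf i i.2).1), (hf i i.2).1⟩
        (k2 _ (hf i i.2).1) ⟨a1, (hf j j.2).1⟩
  have u3 : EqOn θ (χ x) (ball x (δ x)) := by
    simpa only [f0] using u2 ⟨0, by simp⟩
  have hm' : ∀ t ∈ Icc (0 : ℝ) 1, ∀ ζ : ℂ, ‖ζ‖ ≤ 2 → (t < 1 ∨ ζ ≠ 0) →
      f ζ + (t : ℂ) • b ζ ∈ ball (f ζ) (δ (f ζ)) := fun t ht ζ hζ k => by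
    rw [mem_ball, dist_self_add_left, norm_smul, norm_real, Real.norm_of_nonneg ht.1]
    exact hi t ht ζ hζ k
  have hT : Touch (⋃ i : {ζ : ℂ // ‖ζ‖ ≤ 2}, ball (f i) (δ (f i))) f b := by
    refine ⟨df, db, fun t ht ζ hζ k => mem_iUnion.2 ⟨⟨ζ, hζ⟩, hm' t ht ζ hζ k⟩, fun k => hE ?_⟩
    rw [fb] at k
    obtain ⟨r, r0, hr⟩ := Metric.isOpen_iff.1 u1.hol.op p k
    have a1 : p ∈ closure (ball x (δ x)) := by
      rw [closure_ball x (d0 x hx).ne']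
      exact hp.le
    obtain ⟨y, hy⟩ := mem_closure_iff_nhds.1 a1 _ (ball_mem_nhds p r0)
    exact ⟨r, θ, u1.mono isOpen_ball hr, y, hy, u3 hy.2⟩
  obtain ⟨r, χ', r0, a1, a2⟩ := hR _ _ _ _ u1 hT
  obtain ⟨t, ht, a3, a4⟩ := touch_ext hS u1 hT r0 a1 a2
  have a5 := hm' t ⟨ht.1, ht.2.le⟩ 0 (by simp) (Or.inl ht.2)
  rw [fb] at a1 a3
  rw [f0] at a3 a4 a5
  exact hE ⟨r, χ', a1, _, ⟨a3, a5⟩, a4.trans (u3 a5)⟩

end Vale.Agent.P253.K
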