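import Vale.Agent.P253H.Stmt

/-! The Hartogs lifting property. -/

namespace Vale.Agent.P253

/-- A holomorphic map from the bidisc to `X`. -/
def HolB (n : ℕ) {X : Type} [TopologicalSpace X] [ChartedSpace (E n) X] (ψ : E 2 → X) : Prop :=
  HolM (E 2) (E n) ψ bidisc

/-- A holomorphic map from the Hartogs figure to `X`. -/
def HolF (n : ℕ) {X : Type} [TopologicalSpace X] [ChartedSpace (E n) X] (r : ℝ) (φ : E 2 → X) :
    Prop :=
  HolM (E 2) (E n) φ (hartogsFig r)

/-- The Hartogs lifting property of `h`: if `Φ` is a holomorphic map from the bidisc to `Y`, every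
holomorphic lift of `Φ` over a Hartogs figure extends to a holomorphic lift over the bidisc. -/
def HartogsRel (n N : ℕ) {X Y : Type} [TopologicalSpace X] [ChartedSpace (E n) X]
    [TopologicalSpace Y] [ChartedSpace (E N) Y] (h : X → Y) : Prop :=
  ∀ r : ℝ, 0 < r → r < 1 → ∀ (φ : E 2 → X) (Φ : E 2 → Y), HolF n r φ → HolB N Φ →
    (∀ z ∈ hartogsFig r, h (φ z) = Φ z) →
    ∃ ψ : E 2 → X, HolB n ψ ∧ Set.EqOn ψ φ (hartogsFig r) ∧ ∀ z ∈ bidisc, h (ψ z) = Φ z

end Vale.Agent.P253
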