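import Vale.Agent.P253K.D

/-! uniq: the set of w in S with ψ w = χ w is closed in S (T2, continuity HolOn.cont) and open (retr at ψ w: near w both ψ and χ equal R ∘ Φ); IsPreconnected. glueF: for w in the union choose an index (Classical, mem_iUnion), else an arbitrary point; near a point of V i the glued map equals χ i (see glue in P253H/Lift.lean). -/

namespace Vale.Agent.P253.K

open Complex Matrix Metric Set Filter Topology MeasureTheory
open scoped ContDiff ComplexConjugate ComplexOrder ENNReal Manifold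

variable {n m N : ℕ} {X Y : Type} [TopologicalSpace X] [ChartedSpace (E n) X]
  [IsManifold 𝓘(ℂ, E n) ω X] [T2Space X] {G : X → E n → M n} {h : X → Y} {Φ : E m → Y}
  {W Ω : Set (E m)} {ψ : E m → X}

theorem uniq (hS : LI h) {χ : E m → X} {V S : Set (E m)} (h1 : Lf n h Φ W ψ Ω)
    (h2 : Lf n h Φ W χ V) (hc : IsPreconnected S) (s1 : S ⊆ Ω) (s2 : S ⊆ V) {z : E m} (hz : z ∈ S)
    (he : ψ z = χ z) : EqOn ψ χ S := by
  have key : ∀ w ∈ S, ψ w = χ w → ∀ᶠ y in 𝓝 w, ψ y = χ y := fun w hw e => by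
    obtain ⟨R, hr⟩ := hS (ψ w)
    have c1 := (h1.hol.at (s1 hw)).continuousAt
    have c2 := (h2.hol.at (s2 hw)).continuousAt
    filter_upwards [c1.eventually hr, c2.eventually (e ▸ hr), h1.hol.op.mem_nhds (s1 hw),
      h2.hol.op.mem_nhds (s2 hw)] with y a b c d
    rw [← a, ← b, h1.eq y c, h2.eq y d]
  have := hc.subset_of_closure_inter_subset (u := {w | ∀ᶠ y in 𝓝 w, ψ y = χ y})
    isOpen_setOfPred_eventually_nhds ⟨z, hz, key z hz he⟩ fun w hw => key w hw.2 (by
      refine tendsto_nhds_unique_of_frequently_eq (h1.hol.at (s1 hw.2)).continuousAt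
        (h2.hol.at (s2 hw.2)).continuousAt ?_
      exact (mem_closure_iff_frequently.1 hw.1).mono fun y hy => hy.self_of_nhds)
  exact fun w hw => (this hw).self_of_nhds

theorem glueF [Nonempty X] {ι : Type} {V : ι → Set (E m)} {χ : ι → E m → X}
    (h1 : ∀ i, Lf n h Φ W (χ i) (V i)) (h2 : ∀ i j, EqOn (χ i) (χ j) (V i ∩ V j)) :
    ∃ ψ, Lf n h Φ W ψ (⋃ i, V i) ∧ ∀ i, EqOn ψ (χ i) (V i) := by
  classical
  have k : ∀ i, EqOn (fun w => if hw : ∃ j, w ∈ V j then χ hw.choose w else Classical.arbitrary X)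
      (χ i) (V i) := fun i w hw => by
    have hw' : ∃ j, w ∈ V j := ⟨i, hw⟩
    simp only [dif_pos hw']
    exact h2 _ _ ⟨hw'.choose_spec, hw⟩
  refine ⟨_, ⟨⟨isOpen_iUnion fun i => (h1 i).hol.op, fun w hw => ?_⟩,
    iUnion_subset fun i => (h1 i).sub, fun w hw => ?_⟩, k⟩
  · obtain ⟨i, hi⟩ := mem_iUnion.1 hw
    exact (((h1 i).hol.at hi).congr_of_eventuallyEq
      (mem_of_superset ((h1 i).hol.op.mem_nhds hi) (k i))).mdifferentiableWithinAt
  · obtain ⟨i, hi⟩ := mem_iUnion.1 hw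
    exact (congrArg h (k i hi)).trans ((h1 i).eq w hi)

end Vale.Agent.P253.K
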